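import Mathlib

/-! One-prime inequalities for two probability vectors. -/

namespace Vale.Agent.P028

open Finset Real

lemma amgm {x y : ℝ} (s : ℝ) (hx : 0 ≤ x) (hy : 0 ≤ y) :
    (x * y) ^ s ≤ (x ^ (2 * s) + y ^ (2 * s)) / 2 := by
  rw [mul_rpow hx hy, mul_comm 2 s, rpow_mul hx, rpow_mul hy, rpow_two, rpow_two]
  nlinarith [sq_nonneg (x ^ s - y ^ s)]

lemma pw {A : Finset ℕ} {α : ℕ → ℝ} (h : ∀ i, 0 ≤ α i) {u : ℝ} (hu : 1 ≤ u) :
    ∑ i ∈ A, α i ^ u ≤ (∑ i ∈ A, α i) ^ u := by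
  have h0 : 0 ≤ ∑ i ∈ A, α i := sum_nonneg fun i _ => h i
  have e : ∀ x : ℝ, 0 ≤ x → x ^ u = x * x ^ (u - 1) := fun x hx => by
    rw [← rpow_one_add' hx (by linarith)]; ring_nf
  rw [e _ h0, sum_mul]
  refine sum_le_sum fun i hi => ?_
  rw [e _ (h i)]
  exact mul_le_mul_of_nonneg_left
    (rpow_le_rpow (h i) (single_le_sum (fun j _ => h j) hi) (by linarith)) (h i)

lemma geo {r : ℝ} (h0 : 0 ≤ r) (h1 : r < 1) (S : Finset ℕ) (f : ℕ → ℕ) (hf : Set.InjOn f S) :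
    ∑ j ∈ S, r ^ f j ≤ 1 / (1 - r) := by
  rw [← sum_image (f := fun k => r ^ k) hf, one_div, ← tsum_geometric_of_lt_one h0 h1]
  exact (summable_geometric_of_lt_one h0 h1).sum_le_tsum _ fun _ _ => by positivity

lemma row {r : ℝ} (h0 : 0 ≤ r) (h1 : r < 1) (I : Finset ℕ) (i : ℕ) :
    ∑ j ∈ I, (if i = j then 0 else r ^ Nat.dist i j) ≤ 2 * r / (1 - r) := by
  have a1 := geo h0 h1 (I.filter fun j => j < i) (fun j => i - j - 1) fun a ha b hb e => by
    simp only [coe_filter, Set.mem_setOf_eq] at ha hb e; omega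
  have a2 := geo h0 h1 (I.filter fun j => i < j) (fun j => j - i - 1) fun a ha b hb e => by
    simp only [coe_filter, Set.mem_setOf_eq] at ha hb e; omega
  rw [sum_filter] at a1 a2
  calc _ = ∑ j ∈ I, (r * (if j < i then r ^ (i - j - 1) else 0) +
        r * (if i < j then r ^ (j - i - 1) else 0)) := sum_congr rfl fun j _ => by
        rcases lt_trichotomy i j with h | h | h
        · rw [if_neg h.ne, if_neg h.le.not_gt, if_pos h, Nat.dist_eq_sub_of_le h.le, ← pow_succ']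
          simp only [mul_zero, zero_add]; congr 1; omega
        · simp [h]
        · rw [if_neg h.ne', if_pos h, if_neg h.le.not_gt, Nat.dist_eq_sub_of_le_right h.le,
            ← pow_succ']
          simp only [mul_zero, add_zero]; congr 1; omega
    _ ≤ r * (1 / (1 - r)) + r * (1 / (1 - r)) := by
        rw [sum_add_distrib, ← mul_sum, ← mul_sum]; gcongr
    _ = _ := by ring

/-- two probability vectors on `I` -/
structure PV (I : Finset ℕ) (α β : ℕ → ℝ) : Prop where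
  a0 : ∀ i, 0 ≤ α i
  b0 : ∀ i, 0 ≤ β i
  a1 : ∑ i ∈ I, α i = 1
  b1 : ∑ i ∈ I, β i = 1

/-- a kernel with small row and column sums -/
structure Ker (I : Finset ℕ) (Λ : ℕ → ℕ → ℝ) (η : ℝ) : Prop where
  nn : ∀ i j, 0 ≤ Λ i j
  r : ∀ i, ∑ j ∈ I, Λ i j ≤ η
  c : ∀ j, ∑ i ∈ I, Λ i j ≤ η

variable {I : Finset ℕ} {α β : ℕ → ℝ} {Λ : ℕ → ℕ → ℝ} {η s : ℝ}

lemma Ker.nonneg (k : Ker I Λ η) : 0 ≤ η := (sum_nonneg fun j _ => k.nn 0 j).trans (k.r 0)

lemma Ker.bd (k : Ker I Λ η) (h : PV I α β) (hs : 1 / 2 ≤ s) {A B : Finset ℕ} (hA : A ⊆ I)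
    (hB : B ⊆ I) : ∑ i ∈ A, ∑ j ∈ B, Λ i j * (α i * β j) ^ s ≤
      η * (((∑ i ∈ A, α i) ^ (2 * s) + (∑ j ∈ B, β j) ^ (2 * s)) / 2) := by
  have p1 := pw (A := A) h.a0 (u := 2 * s) (by linarith)
  have p2 := pw (A := B) h.b0 (u := 2 * s) (by linarith)
  have q1 : ∑ i ∈ A, ∑ j ∈ B, Λ i j * α i ^ (2 * s) ≤ η * ∑ i ∈ A, α i ^ (2 * s) := by
    rw [mul_sum]
    refine sum_le_sum fun i _ => ?_
    rw [← sum_mul]
    exact mul_le_mul_of_nonneg_right ((sum_le_sum_of_subset_of_nonneg hB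
      fun j _ _ => k.nn i j).trans (k.r i)) (rpow_nonneg (h.a0 i) _)
  have q2 : ∑ i ∈ A, ∑ j ∈ B, Λ i j * β j ^ (2 * s) ≤ η * ∑ j ∈ B, β j ^ (2 * s) := by
    rw [mul_sum, sum_comm]
    refine sum_le_sum fun j _ => ?_
    rw [← sum_mul]
    exact mul_le_mul_of_nonneg_right ((sum_le_sum_of_subset_of_nonneg hA
      fun i _ _ => k.nn i j).trans (k.c j)) (rpow_nonneg (h.b0 j) _)
  have := k.nonneg
  calc _ ≤ ∑ i ∈ A, ∑ j ∈ B, (Λ i j * α i ^ (2 * s) + Λ i j * β j ^ (2 * s)) / 2 :=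
        sum_le_sum fun i _ => sum_le_sum fun j _ => by
          rw [← mul_add, mul_div_assoc]
          exact mul_le_mul_of_nonneg_left (amgm s (h.a0 i) (h.b0 j)) (k.nn i j)
    _ = (∑ i ∈ A, ∑ j ∈ B, Λ i j * α i ^ (2 * s) + ∑ i ∈ A, ∑ j ∈ B, Λ i j * β j ^ (2 * s)) / 2 := by
        simp only [← sum_div, sum_add_distrib]
    _ ≤ _ := by nlinarith [mul_le_mul_of_nonneg_left p1 this, mul_le_mul_of_nonneg_left p2 this]

lemma Ker.all (k : Ker I Λ η) (h : PV I α β) (hs : 1 / 2 ≤ s) :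
    ∑ i ∈ I, ∑ j ∈ I, Λ i j * (α i * β j) ^ s ≤ η := by
  simpa [h.a1, h.b1] using k.bd h hs subset_rfl subset_rfl

lemma PV.ea (h : PV I α β) {i : ℕ} (hi : i ∈ I) : ∑ j ∈ I.erase i, α j = 1 - α i := by
  rw [← h.a1, ← add_sum_erase _ _ hi]; ring

lemma PV.eb (h : PV I α β) {i : ℕ} (hi : i ∈ I) : ∑ j ∈ I.erase i, β j = 1 - β i := by
  rw [← h.b1, ← add_sum_erase _ _ hi]; ring

lemma PV.la (h : PV I α β) {i : ℕ} (hi : i ∈ I) : α i ≤ 1 :=
  h.a1 ▸ single_le_sum (fun j _ => h.a0 j) hi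

lemma PV.lb (h : PV I α β) {i : ℕ} (hi : i ∈ I) : β i ≤ 1 :=
  h.b1 ▸ single_le_sum (fun j _ => h.b0 j) hi

lemma PV.ta (h : PV I α β) (hs : 0 ≤ s) {k i j : ℕ} (hk : k ∈ I) (hi : i ∈ I) (hj : j ∈ I)
    (e : i ≠ k ∨ j ≠ k) : (α i * β j) ^ s ≤ (2 - α k - β k) ^ s := by
  refine rpow_le_rpow (mul_nonneg (h.a0 i) (h.b0 j)) ?_ hs
  have := h.la hk
  have := h.lb hk
  rcases e with e | e
  · have := single_le_sum (fun j _ => h.a0 j) (mem_erase.2 ⟨e, hi⟩)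
    rw [h.ea hk] at this
    nlinarith [h.a0 i, h.lb hj]
  · have := single_le_sum (fun j _ => h.b0 j) (mem_erase.2 ⟨e, hj⟩)
    rw [h.eb hk] at this
    nlinarith [h.b0 j, h.la hi]

/-- the part away from row and column `k` -/
lemma Ker.away (k : Ker I Λ η) (h : PV I α β) (hs : 1 / 2 ≤ s) {c : ℕ} (hc : c ∈ I) :
    ∑ i ∈ I.erase c, ∑ j ∈ I.erase c, Λ i j * (α i * β j) ^ s ≤ η * (2 - α c - β c) ^ (2 * s) := by
  refine (k.bd h hs (erase_subset _ _) (erase_subset _ _)).trans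
    (mul_le_mul_of_nonneg_left ?_ k.nonneg)
  rw [h.ea hc, h.eb hc]
  have := h.la hc
  have := h.lb hc
  have a : (1 - α c) ^ (2 * s) ≤ (2 - α c - β c) ^ (2 * s) :=
    rpow_le_rpow (by linarith) (by linarith) (by linarith)
  have b : (1 - β c) ^ (2 * s) ≤ (2 - α c - β c) ^ (2 * s) :=
    rpow_le_rpow (by linarith) (by linarith) (by linarith)
  linarith

lemma split (f : ℕ → ℕ → ℝ) {c : ℕ} (hc : c ∈ I) : ∑ i ∈ I, ∑ j ∈ I, f i j =
    ∑ j ∈ I, f c j + ∑ i ∈ I.erase c, f i c + ∑ i ∈ I.erase c, ∑ j ∈ I.erase c, f i j := by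
  rw [← add_sum_erase _ _ hc, add_assoc, ← sum_add_distrib]
  congr 1
  exact sum_congr rfl fun i _ => (add_sum_erase _ _ hc).symm

lemma Ker.off (k : Ker I Λ η) (h : PV I α β) (hs : 1 / 2 ≤ s) {c : ℕ} (hc : c ∈ I)
    (h0 : Λ c c = 0) :
    ∑ i ∈ I, ∑ j ∈ I, Λ i j * (α i * β j) ^ s ≤ 3 * η * (2 - α c - β c) ^ s := by
  have := h.la hc
  have := h.lb hc
  have z0 : 0 ≤ (2 - α c - β c) ^ s := rpow_nonneg (by linarith) _
  have a : ∑ j ∈ I, Λ c j * (α c * β j) ^ s ≤ η * (2 - α c - β c) ^ s := by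
    refine le_trans (sum_le_sum fun j hj => ?_) ((sum_mul I (Λ c) _).ge.trans
      (mul_le_mul_of_nonneg_right (k.r c) z0))
    by_cases e : j = c
    · simp [e, h0]
    · exact mul_le_mul_of_nonneg_left (h.ta (by linarith) hc hc hj (Or.inr e)) (k.nn _ _)
  have b : ∑ i ∈ I.erase c, Λ i c * (α i * β c) ^ s ≤ η * (2 - α c - β c) ^ s := by
    refine le_trans (sum_le_sum fun i hi => ?_) ((sum_mul (I.erase c) (fun i => Λ i c) _).ge.trans
      (mul_le_mul_of_nonneg_right ((sum_le_sum_of_subset_of_nonneg (erase_subset _ _)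
        fun i _ _ => k.nn i c).trans (k.c c)) z0))
    exact mul_le_mul_of_nonneg_left
      (h.ta (by linarith) hc (mem_of_mem_erase hi) hc (Or.inl (ne_of_mem_erase hi))) (k.nn _ _)
  have d := k.bd h hs (erase_subset c I) (erase_subset c I)
  rw [h.ea hc, h.eb hc] at d
  have e1 : (1 - α c) ^ (2 * s) ≤ (2 - α c - β c) ^ s :=
    (rpow_le_rpow_of_exponent_ge' (by linarith) (by linarith [h.a0 c]) (by linarith)
      (by linarith)).trans (rpow_le_rpow (by linarith) (by linarith) (by linarith))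
  have e2 : (1 - β c) ^ (2 * s) ≤ (2 - α c - β c) ^ s :=
    (rpow_le_rpow_of_exponent_ge' (by linarith) (by linarith [h.b0 c]) (by linarith)
      (by linarith)).trans (rpow_le_rpow (by linarith) (by linarith) (by linarith))
  rw [split _ hc]
  nlinarith [k.nonneg]

/-- concentration of the diagonal sum -/
lemma core (hs : 1 / 2 < s) : ∃ η : ℝ, 0 < η ∧ η ≤ 1 / 24 ∧ ∀ (I : Finset ℕ) (α β : ℕ → ℝ),
    PV I α β → 1 - η ≤ ∑ i ∈ I, (α i * β i) ^ s →
    ∃ c ∈ I, ∑ i ∈ I, (α i * β i) ^ s ≤ 1 - (2 - α c - β c) / 4 := by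
  set δ : ℝ := (1 / 2 : ℝ) ^ (1 / (2 * s - 1)) with hδ
  have d0 : 0 < δ := by positivity
  have d1 : δ < 1 := rpow_lt_one (by norm_num) (by norm_num) (by apply div_pos <;> linarith)
  have d2 : δ ^ (2 * s - 1) = 1 / 2 := by
    rw [hδ, ← rpow_mul (by norm_num), one_div_mul_cancel (by linarith), rpow_one]
  have d3 : (1 - δ) ^ (s - 1 / 2) < 1 := rpow_lt_one (by linarith) (by linarith) (by linarith)
  refine ⟨min (1 - (1 - δ) ^ (s - 1 / 2)) (1 / 24), lt_min (by linarith) (by norm_num),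
    min_le_right _ _, fun I α β h hT => ?_⟩
  have ne : I.Nonempty := nonempty_of_sum_ne_zero (by rw [h.a1]; norm_num)
  obtain ⟨c, hc, hm⟩ := exists_max_image I (fun i => α i * β i) ne
  have half : ∀ i, (α i * β i) ^ (1 / 2 : ℝ) ≤ (α i + β i) / 2 := fun i => by
    simpa using amgm (1 / 2) (h.a0 i) (h.b0 i)
  have m0 := mul_nonneg (h.a0 c) (h.b0 c)
  have t1 : ∑ i ∈ I, (α i * β i) ^ s ≤ (α c * β c) ^ (s - 1 / 2) := by
    calc _ ≤ ∑ i ∈ I, (α c * β c) ^ (s - 1 / 2) * ((α i + β i) / 2) := sum_le_sum fun i hi => by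
          have := mul_nonneg (h.a0 i) (h.b0 i)
          rw [show s = (s - 1 / 2) + 1 / 2 by ring, rpow_add' this (by linarith), add_sub_cancel_right]
          exact mul_le_mul (rpow_le_rpow this (hm i hi) (by linarith)) (half i)
            (rpow_nonneg this _) (rpow_nonneg m0 _)
      _ = _ := by rw [← mul_sum, ← sum_div, sum_add_distrib, h.a1, h.b1]; ring
  have t2 : 1 - δ ≤ α c * β c := by
    refine le_of_not_gt fun e => ?_
    have := rpow_lt_rpow m0 e (z := s - 1 / 2) (by linarith)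
    linarith [min_le_left (1 - (1 - δ) ^ (s - 1 / 2)) (1 / 24)]
  have la := h.la hc
  have lb := h.lb hc
  have sm : ∀ x : ℝ, 0 ≤ x → x ≤ δ → x ^ (2 * s) ≤ x / 2 := fun x h0 h1 => by
    rw [show 2 * s = 1 + (2 * s - 1) by ring, rpow_one_add' h0 (by linarith), div_eq_mul_one_div,
      ← d2]
    exact mul_le_mul_of_nonneg_left (rpow_le_rpow h0 h1 (by linarith)) h0
  have a1 := sm (1 - α c) (by linarith) (by nlinarith [h.a0 c])
  have b1 := sm (1 - β c) (by linarith) (by nlinarith [h.b0 c])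
  have t3 : ∑ i ∈ I.erase c, (α i * β i) ^ s ≤
      ((1 - α c) ^ (2 * s) + (1 - β c) ^ (2 * s)) / 2 := by
    have p1 := pw (A := I.erase c) h.a0 (u := 2 * s) (by linarith)
    have p2 := pw (A := I.erase c) h.b0 (u := 2 * s) (by linarith)
    rw [h.ea hc] at p1
    rw [h.eb hc] at p2
    refine (sum_le_sum fun i _ => amgm s (h.a0 i) (h.b0 i)).trans ?_
    rw [← sum_div, sum_add_distrib]; linarith
  have t4 : (α c * β c) ^ s ≤ (α c + β c) / 2 :=
    (rpow_le_rpow_of_exponent_ge' m0 (by nlinarith [h.a0 c]) (by norm_num) hs.le).trans (half c)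
  exact ⟨c, hc, by rw [← add_sum_erase _ _ hc]; linarith⟩

lemma oneG (hs : 1 / 2 < s) (hs' : s < 1) : ∃ η : ℝ, 0 < η ∧ η ≤ 1 / 24 ∧
    ∀ (I : Finset ℕ) (α β : ℕ → ℝ) (Λ : ℕ → ℕ → ℝ) (y : ℝ), PV I α β → Ker I Λ η →
    (∀ i, Λ i i = 0) → 0 ≤ y → y ≤ 1 → (1 - y) ^ (1 - s) * ∑ i ∈ I, (α i * β i) ^ s +
      y ^ (1 - s) * ∑ i ∈ I, ∑ j ∈ I, Λ i j * (α i * β j) ^ s ≤ 1 := by
  obtain ⟨η, e0, e1, H⟩ := core hs
  refine ⟨η, e0, e1, fun I α β Λ y h k hd y0 y1 => ?_⟩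
  have T0 : 0 ≤ ∑ i ∈ I, (α i * β i) ^ s :=
    sum_nonneg fun i _ => rpow_nonneg (mul_nonneg (h.a0 i) (h.b0 i)) _
  have u0 : 0 ≤ y ^ (1 - s) := rpow_nonneg y0 _
  have u1 : (1 - y) ^ (1 - s) ≤ 1 + (1 - s) * -y :=
    rpow_one_add_le_one_add_mul_self (s := -y) (by linarith) (by linarith) (by linarith)
  have u2 : 0 ≤ (1 - s) * y := mul_nonneg (by linarith) y0
  rcases le_total (1 - η) (∑ i ∈ I, (α i * β i) ^ s) with hT | hT
  · obtain ⟨c, hc, t⟩ := H I α β h hT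
    have o := k.off h hs.le hc (hd c)
    have la := h.la hc
    have lb := h.lb hc
    have := h.a0 c
    have := h.b0 c
    set z := 2 - α c - β c
    have g := geom_mean_le_arith_mean2_weighted (w₁ := 1 - s) (w₂ := s) (p₁ := y) (p₂ := z)
      (by linarith) (by linarith) y0 (by simp only [z]; linarith) (by ring)
    have z0 : 0 ≤ z := by simp only [z]; linarith
    have z2 : z ≤ 2 := by simp only [z]; linarith
    have g1 : y ^ (1 - s) * ∑ i ∈ I, ∑ j ∈ I, Λ i j * (α i * β j) ^ s ≤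
        3 * η * ((1 - s) * y + s * z) := by
      refine (mul_le_mul_of_nonneg_left o u0).trans ?_
      rw [mul_left_comm]
      exact mul_le_mul_of_nonneg_left g (by linarith)
    have g2 : (1 - y) ^ (1 - s) * ∑ i ∈ I, (α i * β i) ^ s ≤ (1 - (1 - s) * y) * (1 - z / 4) :=
      mul_le_mul (by linarith) t T0 (by nlinarith)
    have g3 : 3 * η * ((1 - s) * y + s * z) ≤ 1 / 8 * ((1 - s) * y + z) :=
      mul_le_mul (by linarith) (by nlinarith) (by positivity) (by norm_num)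
    have g4 : (1 - s) * y ≤ 1 / 2 := by nlinarith
    nlinarith
  · have o := k.all h hs.le
    have : y ^ (1 - s) ≤ 1 := rpow_le_one y0 y1 (by linarith)
    have O0 : 0 ≤ ∑ i ∈ I, ∑ j ∈ I, Λ i j * (α i * β j) ^ s := sum_nonneg fun i _ =>
      sum_nonneg fun j _ => mul_nonneg (k.nn i j) (rpow_nonneg (mul_nonneg (h.a0 i) (h.b0 j)) _)
    nlinarith

end Vale.Agent.P028
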