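import Vale.Agent.P028.Core

/-! Weighted bipartite graphs on integers, split by one valuation. -/

namespace Vale.Agent.P028

open Finset Real

structure Gr (V W : Finset ℕ) (E : Finset (ℕ × ℕ)) (m n : ℕ → ℝ) : Prop where
  sub : E ⊆ V ×ˢ W
  m0 : ∀ v, 0 ≤ m v
  n0 : ∀ v, 0 ≤ n v

noncomputable def mu (E : Finset (ℕ × ℕ)) (m n : ℕ → ℝ) : ℝ := ∑ e ∈ E, m e.1 * n e.2

noncomputable def aa (val : ℕ → ℕ → ℕ) (T : Finset ℕ) (w v : ℕ) : ℝ :=
  ∏ p ∈ T, (p : ℝ) ^ (val p w - val p v)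

def Inj (val : ℕ → ℕ → ℕ) (T V : Finset ℕ) : Prop :=
  ∀ v ∈ V, ∀ v' ∈ V, (∀ p ∈ T, val p v = val p v') → v = v'

def fV (g : ℕ → ℕ) (V : Finset ℕ) (i : ℕ) : Finset ℕ := V.filter fun v => g v = i

def fE (g : ℕ → ℕ) (E : Finset (ℕ × ℕ)) (i j : ℕ) : Finset (ℕ × ℕ) :=
  E.filter fun e => g e.1 = i ∧ g e.2 = j

variable {V W : Finset ℕ} {E : Finset (ℕ × ℕ)} {m n : ℕ → ℝ}

lemma Gr.triv (h : Gr V W E m n) : mu E m n ≤ (∑ v ∈ V, m v) * ∑ w ∈ W, n w := by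
  rw [sum_mul_sum, ← sum_product']
  exact sum_le_sum_of_subset_of_nonneg h.sub fun e _ _ => mul_nonneg (h.m0 _) (h.n0 _)

lemma Gr.mu0 (h : Gr V W E m n) : 0 ≤ mu E m n :=
  sum_nonneg fun _ _ => mul_nonneg (h.m0 _) (h.n0 _)

lemma Gr.M0 (h : Gr V W E m n) : 0 ≤ ∑ v ∈ V, m v := sum_nonneg fun _ _ => h.m0 _

lemma Gr.N0 (h : Gr V W E m n) : 0 ≤ ∑ v ∈ W, n v := sum_nonneg fun _ _ => h.n0 _

lemma Gr.fib (h : Gr V W E m n) (g : ℕ → ℕ) (i j : ℕ) {a b : ℝ} (ha : 0 ≤ a) (hb : 0 ≤ b) :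
    Gr (fV g V i) (fV g W j) (fE g E i j) (fun v => a * m v) (fun v => b * n v) where
  sub e he := by
    have h1 := mem_filter.1 he
    have h2 := mem_product.1 (h.sub h1.1)
    exact mem_product.2 ⟨mem_filter.2 ⟨h2.1, h1.2.1⟩, mem_filter.2 ⟨h2.2, h1.2.2⟩⟩
  m0 v := mul_nonneg ha (h.m0 v)
  n0 v := mul_nonneg hb (h.n0 v)

lemma Inj.fib {val : ℕ → ℕ → ℕ} {T : Finset ℕ} (h : Inj val T V) (p i : ℕ) :
    Inj val (T.erase p) (fV (val p) V i) := by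
  intro v hv v' hv' e
  have a := mem_filter.1 hv
  have b := mem_filter.1 hv'
  refine h v a.1 v' b.1 fun q hq => ?_
  by_cases c : q = p
  · rw [c, a.2, b.2]
  · exact e q (mem_erase.2 ⟨c, hq⟩)

lemma aa_erase (val : ℕ → ℕ → ℕ) {T : Finset ℕ} {p : ℕ} (hp : p ∈ T) (w v : ℕ) :
    aa val T w v = (p : ℝ) ^ (val p w - val p v) * aa val (T.erase p) w v :=
  (mul_prod_erase T (fun p => (p : ℝ) ^ (val p w - val p v)) hp).symm

lemma Gr.split (h : Gr V W E m n) (g : ℕ → ℕ) (P : ℕ → ℕ → Prop) [∀ i j, Decidable (P i j)] :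
    mu (E.filter fun e => P (g e.1) (g e.2)) m n = ∑ i ∈ (V ∪ W).image g, ∑ j ∈ (V ∪ W).image g,
      if P i j then mu (fE g E i j) m n else 0 := by
  rw [← sum_product', mu, ← sum_fiberwise_of_maps_to (t := (V ∪ W).image g ×ˢ (V ∪ W).image g)
    (g := fun e => (g e.1, g e.2))]
  · refine sum_congr rfl fun x _ => ?_
    split_ifs with c
    · refine sum_congr ?_ fun _ _ => rfl
      ext e
      simp only [fE, mem_filter, Prod.ext_iff]
      constructor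
      · exact fun a => ⟨a.1.1, a.2⟩
      · exact fun a => ⟨⟨a.1, by rw [a.2.1, a.2.2]; exact c⟩, a.2⟩
    · refine sum_eq_zero fun e he => ?_
      simp only [mem_filter, Prod.ext_iff] at he
      exact absurd (he.2.1 ▸ he.2.2 ▸ he.1.2) c
  · intro e he
    have h2 := mem_product.1 (h.sub (mem_filter.1 he).1)
    exact mem_product.2 ⟨mem_image_of_mem _ (mem_union_left _ h2.1),
      mem_image_of_mem _ (mem_union_right _ h2.2)⟩

lemma Gr.pv (h : Gr V W E m n) (g : ℕ → ℕ) (hM : 0 < ∑ v ∈ V, m v) (hN : 0 < ∑ v ∈ W, n v) :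
    PV ((V ∪ W).image g) (fun i => (∑ v ∈ fV g V i, m v) / ∑ v ∈ V, m v)
      (fun i => (∑ v ∈ fV g W i, n v) / ∑ v ∈ W, n v) where
  a0 i := div_nonneg (sum_nonneg fun _ _ => h.m0 _) hM.le
  b0 i := div_nonneg (sum_nonneg fun _ _ => h.n0 _) hN.le
  a1 := by
    rw [← sum_div, div_eq_one_iff_eq hM.ne']
    exact sum_fiberwise_of_maps_to (fun v hv => mem_image_of_mem _ (mem_union_left _ hv)) _
  b1 := by
    rw [← sum_div, div_eq_one_iff_eq hN.ne']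
    exact sum_fiberwise_of_maps_to (fun v hv => mem_image_of_mem _ (mem_union_right _ hv)) _

/-- undoing the rescaling of a fibre -/
lemma Gr.scale (h : Gr V W E m n) (g : ℕ → ℕ) (hM : 0 < ∑ v ∈ V, m v) (hN : 0 < ∑ v ∈ W, n v)
    {p C s : ℝ} (hp : 0 < p) (i j : ℕ)
    (H : mu (fE g E i j) (fun v => p ^ (j - i) * m v) (fun v => p ^ (i - j) * n v) ≤
      C * ((∑ v ∈ fV g V i, p ^ (j - i) * m v) * ∑ v ∈ fV g W j, p ^ (i - j) * n v) ^ s) :
    mu (fE g E i j) m n ≤ C * ((∑ v ∈ V, m v) * ∑ v ∈ W, n v) ^ s * ((p ^ (s - 1)) ^ Nat.dist i j *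
      ((∑ v ∈ fV g V i, m v) / (∑ v ∈ V, m v) * ((∑ v ∈ fV g W j, n v) / ∑ v ∈ W, n v)) ^ s) := by
  have e : p ^ (j - i) * p ^ (i - j) = p ^ Nat.dist i j := by
    rw [← pow_add, Nat.dist, add_comm]
  have e1 : mu (fE g E i j) (fun v => p ^ (j - i) * m v) (fun v => p ^ (i - j) * n v) =
      p ^ Nat.dist i j * mu (fE g E i j) m n := by
    rw [mu, mu, mul_sum, ← e]
    exact sum_congr rfl fun _ _ => by ring
  rw [e1, ← mul_sum, ← mul_sum, mul_mul_mul_comm, e] at H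
  have a0 : 0 ≤ ∑ v ∈ fV g V i, m v := sum_nonneg fun _ _ => h.m0 _
  have b0 : 0 ≤ ∑ v ∈ fV g W j, n v := sum_nonneg fun _ _ => h.n0 _
  have x0 : 0 < p ^ Nat.dist i j := by positivity
  rw [rpow_pow_comm hp.le]
  generalize p ^ Nat.dist i j = x at *
  generalize ∑ v ∈ fV g V i, m v = a at *
  generalize ∑ v ∈ fV g W j, n v = b at *
  generalize ∑ v ∈ V, m v = M at *
  generalize ∑ v ∈ W, n v = N at *
  refine le_of_mul_le_mul_left (H.trans (le_of_eq ?_)) x0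
  rw [div_mul_div_comm, div_rpow (by positivity) (by positivity), mul_rpow x0.le (by positivity),
    rpow_sub_one x0.ne']
  have : 0 < (M * N) ^ s := by positivity
  field_simp

lemma Gr.deg (h : Gr V W E m n) {X : ℝ} (hX : 0 ≤ X)
    (H : 0 < ∑ v ∈ V, m v → 0 < ∑ v ∈ W, n v → mu E m n ≤ X) : mu E m n ≤ X := by
  rcases h.M0.eq_or_lt with a | a
  · exact h.triv.trans (by rw [← a, zero_mul]; exact hX)
  rcases h.N0.eq_or_lt with b | b
  · exact h.triv.trans (by rw [← b, mul_zero]; exact hX)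
  exact H a b

lemma kerD {r : ℝ} (h0 : 0 ≤ r) (h1 : r < 1) {a : ℝ} (ha : 0 ≤ a) (I : Finset ℕ) :
    Ker I (fun i j => a * if i = j then 0 else r ^ Nat.dist i j) (a * (2 * r / (1 - r))) where
  nn i j := by split_ifs <;> positivity
  r i := by rw [← mul_sum]; exact mul_le_mul_of_nonneg_left (row h0 h1 I i) ha
  c j := by
    rw [← mul_sum]
    refine mul_le_mul_of_nonneg_left (le_of_eq_of_le ?_ (row h0 h1 I j)) ha
    exact sum_congr rfl fun i _ => by simp only [eq_comm (a := i), Nat.dist_comm i j]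

lemma diag (I : Finset ℕ) (r : ℝ) (f : ℕ → ℕ → ℝ) : ∑ i ∈ I, ∑ j ∈ I, r ^ Nat.dist i j * f i j =
    ∑ i ∈ I, f i i + ∑ i ∈ I, ∑ j ∈ I, (1 * if i = j then 0 else r ^ Nat.dist i j) * f i j := by
  rw [← sum_add_distrib]
  refine sum_congr rfl fun i hi => ?_
  rw [← add_sum_erase _ _ hi, ← add_sum_erase _ _ hi]
  simp only [Nat.dist_self, pow_zero, one_mul, if_true, zero_mul, zero_add]
  congr 1
  exact sum_congr rfl fun j hj => by rw [if_neg (ne_of_mem_erase hj).symm]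

lemma PV.dg {I : Finset ℕ} {α β : ℕ → ℝ} (h : PV I α β) {s : ℝ} (hs : 1 / 2 ≤ s) :
    ∑ i ∈ I, (α i * β i) ^ s ≤ 1 := by
  have p1 := pw (A := I) h.a0 (u := 2 * s) (by linarith)
  have p2 := pw (A := I) h.b0 (u := 2 * s) (by linarith)
  rw [h.a1, one_rpow] at p1
  rw [h.b1, one_rpow] at p2
  refine (sum_le_sum fun i _ => amgm s (h.a0 i) (h.b0 i)).trans ?_
  rw [← sum_div, sum_add_distrib]; linarith

end Vale.Agent.P028
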