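import Vale.Agent.P028.Fib

/-! The gcd inequality with a prescribed set of ratios. -/

namespace Vale.Agent.P028

open Finset Real

noncomputable def cc (η s : ℝ) (k : ℕ) : ℝ :=
  if k = 0 then 1 else (η / 18 * (9 / 10) ^ k) ^ (-(1 / (1 - s)))

lemma cc_pos {η : ℝ} (h : 0 < η) (s : ℝ) (k : ℕ) : 0 < cc η s k := by
  unfold cc; split_ifs <;> positivity

theorem GG {s : ℝ} (hs : 1 / 2 < s) (hs' : s < 1) : ∃ η : ℝ, 0 < η ∧ η ≤ 1 / 24 ∧
    ∀ (val : ℕ → ℕ → ℕ) (dd : ℕ → ℕ × ℕ → ℕ) (ρ : ℕ × ℕ → ℕ × ℕ) (T V W : Finset ℕ)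
    (E R : Finset (ℕ × ℕ)) (m n : ℕ → ℝ), (∀ p ∈ T, 0 < p) → Gr V W E m n → Inj val T V →
    Inj val T W → (∀ e ∈ E, ρ e ∈ R ∧ ∀ p ∈ T, dd p (ρ e) = Nat.dist (val p e.1) (val p e.2)) →
    (∀ e ∈ E, m e.1 * aa val T e.2 e.1 ≤ 1 ∧ n e.2 * aa val T e.1 e.2 ≤ 1) →
    mu E m n ≤ (∑ r ∈ R, ∏ p ∈ T, cc η s (dd p r) / (p : ℝ) ^ dd p r) ^ (1 - s) *
      ((∑ v ∈ V, m v) * ∑ w ∈ W, n w) ^ s := by
  obtain ⟨η, e0, e1, H⟩ := oneG hs hs'
  refine ⟨η, e0, e1, fun val dd ρ T => ?_⟩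
  induction T using Finset.strongInduction with
  | H T ih =>
  intro V W E R m n hT h hV hW hR hm
  have X0 := rpow_nonneg (mul_nonneg h.M0 h.N0) s
  have F0 : ∀ S ⊆ T, ∀ r, 0 < ∏ p ∈ S, cc η s (dd p r) / (p : ℝ) ^ dd p r := fun S hS r =>
    prod_pos fun p hp => div_pos (cc_pos e0 _ _) (pow_pos (by exact_mod_cast hT p (hS hp)) _)
  have F1 := F0 T subset_rfl
  have G0 : ∀ S : Finset (ℕ × ℕ), 0 ≤ ∑ r ∈ S, ∏ p ∈ T, cc η s (dd p r) / (p : ℝ) ^ dd p r :=
    fun S => sum_nonneg fun r _ => (F1 r).le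
  rcases E.eq_empty_or_nonempty with rfl | ⟨e, he⟩
  · exact le_of_eq_of_le sum_empty (mul_nonneg (rpow_nonneg (G0 R) _) X0)
  refine h.deg (mul_nonneg (rpow_nonneg (G0 R) _) X0) fun hM hN => ?_
  rcases T.eq_empty_or_nonempty with rfl | ⟨p, hp⟩
  · have a := mem_product.1 (h.sub he)
    have b := hm e he
    simp only [aa, prod_empty, mul_one] at b
    have c1 : ∑ v ∈ V, m v ≤ ∑ v ∈ {e.1}, m v := sum_le_sum_of_subset_of_nonneg
      (fun v hv => mem_singleton.2 (hV v hv _ a.1 (by simp))) fun _ _ _ => h.m0 _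
    have c2 : ∑ v ∈ W, n v ≤ ∑ v ∈ {e.2}, n v := sum_le_sum_of_subset_of_nonneg
      (fun v hv => mem_singleton.2 (hW v hv _ a.2 (by simp))) fun _ _ _ => h.n0 _
    rw [sum_singleton] at c1 c2
    have c3 := rpow_le_rpow_of_exponent_ge (mul_pos hM hN)
      (mul_le_one₀ (c1.trans b.1) hN.le (c2.trans b.2)) hs'.le
    rw [rpow_one] at c3
    refine (h.triv.trans c3).trans (le_mul_of_one_le_left X0 (one_le_rpow ?_ (by linarith)))
    simpa using single_le_sum (fun r _ => (F1 r).le) (hR e he).1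
  have p0 : (0 : ℝ) < p := by exact_mod_cast hT p hp
  have Gp : 0 < ∑ r ∈ R, ∏ p ∈ T, cc η s (dd p r) / (p : ℝ) ^ dd p r :=
    (F1 _).trans_le (single_le_sum (fun r _ => (F1 r).le) (hR e he).1)
  have fb : ∀ i j, mu (fE (val p) E i j) m n ≤ _ := fun i j =>
    h.scale (val p) hM hN p0 i j
      (ih _ (erase_ssubset hp) _ _ _ (R.filter fun r => dd p r = Nat.dist i j) _ _
        (fun q hq => hT q (mem_of_mem_erase hq))
        (h.fib (val p) i j (by positivity) (by positivity)) (hV.fib p i) (hW.fib p j)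
        (fun e he => by
          obtain ⟨h1, h2, h3⟩ := mem_filter.1 he
          exact ⟨mem_filter.2 ⟨(hR e h1).1, by rw [(hR e h1).2 p hp, h2, h3]⟩,
            fun q hq => (hR e h1).2 q (mem_of_mem_erase hq)⟩)
        (fun e he => by
          obtain ⟨h1, h2, h3⟩ := mem_filter.1 he
          obtain ⟨a, b⟩ := hm e h1
          rw [aa_erase val hp, h2, h3] at a b
          exact ⟨by linarith, by linarith⟩))
  have sp := h.split (val p) fun _ _ => True
  simp only [filter_true, if_true] at sp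
  have k1 : ∀ k : ℕ, (∑ r ∈ R.filter fun r => dd p r = k,
      ∏ p ∈ T.erase p, cc η s (dd p r) / (p : ℝ) ^ dd p r) ^ (1 - s) * ((p : ℝ) ^ (s - 1)) ^ k =
      ((∑ r ∈ R.filter fun r => dd p r = k,
        ∏ p ∈ T, cc η s (dd p r) / (p : ℝ) ^ dd p r) / cc η s k) ^ (1 - s) := by
    intro k
    rw [rpow_pow_comm p0.le, ← neg_sub 1 s, rpow_neg (by positivity), ← div_eq_mul_inv, ← div_rpow
      (sum_nonneg fun r _ => (F0 _ (erase_subset _ _) r).le) (by positivity), sum_div, sum_div]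
    congr 1
    refine sum_congr rfl fun r hr => ?_
    rw [← mul_prod_erase T _ hp, (mem_filter.1 hr).2]
    have := cc_pos e0 s k
    field_simp
  have k2 := sum_filter_add_sum_filter_not R (fun r => dd p r = 0)
    fun r => ∏ p ∈ T, cc η s (dd p r) / (p : ℝ) ^ dd p r
  have k3 : ∀ k, k ≠ 0 → ∑ r ∈ R.filter fun r => dd p r = k,
      ∏ p ∈ T, cc η s (dd p r) / (p : ℝ) ^ dd p r ≤ ∑ r ∈ R.filter fun r => ¬ dd p r = 0,
      ∏ p ∈ T, cc η s (dd p r) / (p : ℝ) ^ dd p r := fun k hk =>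
    sum_le_sum_of_subset_of_nonneg (fun r hr => mem_filter.2 ⟨(mem_filter.1 hr).1,
      (mem_filter.1 hr).2 ▸ hk⟩) fun r _ _ => (F1 r).le
  have Y0 := G0 (R.filter fun r => ¬ dd p r = 0)
  have Z0 := G0 (R.filter fun r => dd p r = 0)
  have pv := h.pv (val p) hM hN
  have ke := kerD (r := 9 / 10) (by norm_num) (by norm_num) (a := η / 18) (by positivity)
    ((V ∪ W).image (val p))
  rw [show η / 18 * (2 * (9 / 10) / (1 - 9 / 10)) = η by ring] at ke
  generalize hY : ∑ r ∈ R.filter fun r => ¬ dd p r = 0,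
      ∏ p ∈ T, cc η s (dd p r) / (p : ℝ) ^ dd p r = Y at *
  generalize ∑ r ∈ R, ∏ p ∈ T, cc η s (dd p r) / (p : ℝ) ^ dd p r = G at *
  have o := H _ _ _ _ (Y / G) pv ke (by simp) (by positivity) ((div_le_one Gp).2 (by linarith))
  refine le_trans ?_ (mul_le_of_le_one_right (by positivity) o)
  generalize ((∑ v ∈ V, m v) * ∑ v ∈ W, n v) ^ s = X at *
  rw [sp, mul_sum, mul_sum, ← sum_add_distrib, mul_sum]
  refine sum_le_sum fun i hi => ?_
  rw [mul_sum, mul_add, mul_sum, ← add_sum_erase _ _ hi, ← add_sum_erase _ _ hi]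
  simp only [if_true, mul_zero, zero_mul, zero_add]
  refine add_le_add ((fb i i).trans (le_of_eq ?_)) (sum_le_sum fun j hj => (fb i j).trans ?_)
  · rw [mul_mul_mul_comm, k1, Nat.dist_self, cc, if_pos rfl, div_one, eq_sub_of_add_eq k2,
      show G - Y = G * (1 - Y / G) by field_simp,
      mul_rpow Gp.le (sub_nonneg.2 ((div_le_one Gp).2 (by linarith)))]
    ring
  · have d : i ≠ j := (ne_of_mem_erase hj).symm
    have d' : Nat.dist i j ≠ 0 := fun e => d (Nat.eq_of_dist_eq_zero e)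
    have b1 : G ^ (1 - s) * (Y / G) ^ (1 - s) = Y ^ (1 - s) := by
      rw [← mul_rpow Gp.le (by positivity), mul_div_cancel₀ _ Gp.ne']
    rw [mul_mul_mul_comm, k1, if_neg d, div_rpow (G0 _) (cc_pos e0 _ _).le, cc, if_neg d',
      ← rpow_mul (x := η / 18 * _) (by positivity), neg_mul, one_div_mul_cancel (by linarith),
      rpow_neg_one, div_inv_eq_mul]
    have a1 := rpow_le_rpow (G0 _) (k3 _ d') (show 0 ≤ 1 - s by linarith)
    have a2 := rpow_nonneg (mul_nonneg (pv.a0 i) (pv.b0 j)) s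
    calc _ ≤ Y ^ (1 - s) * (η / 18 * (9 / 10) ^ Nat.dist i j) * _ :=
          mul_le_mul_of_nonneg_right (mul_le_mul_of_nonneg_right a1 (by positivity))
            (mul_nonneg X0 a2)
      _ = _ := by rw [← b1]; ring

end Vale.Agent.P028
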