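import Vale.Agent.P028.Fib

/-! Structured graphs and the one-prime concentration step. -/

namespace Vale.Agent.P028

open Finset Real

noncomputable def rho (val : ℕ → ℕ → ℕ) (T : Finset ℕ) (v : ℕ) : ℝ :=
  ∏ p ∈ T, if val p v = 0 then 1 else 1 - 1 / (p : ℝ)

def good (c i j : ℕ) : Prop := (i = c ∨ j = c) ∧ Nat.dist i j ≤ 1

instance (c i j : ℕ) : Decidable (good c i j) := by unfold good; infer_instance

lemma good.symm {c i j : ℕ} (h : good c i j) : good c j i :=
  ⟨h.1.symm, by rw [Nat.dist_comm]; exact h.2⟩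

def up (val : ℕ → ℕ → ℕ) (T : Finset ℕ) (c : ℕ → ℕ) (v : ℕ) : ℕ :=
  ∏ p ∈ T.filter fun p => val p v = c p + 1, p

variable {val : ℕ → ℕ → ℕ} {T : Finset ℕ} {c : ℕ → ℕ}

lemma up_pos (hT : ∀ p ∈ T, p.Prime) (v : ℕ) : 0 < up val T c v :=
  prod_pos fun p hp => (hT p (mem_filter.1 hp).1).pos

lemma half (hT : ∀ p ∈ T, p.Prime) {A : Finset ℕ} (hA : Inj val T A) {m : ℕ → ℝ} {w : ℕ} {t : ℝ}
    (ht : 0 ≤ t) (hg : ∀ v ∈ A, ∀ p ∈ T, good (c p) (val p v) (val p w))
    (hm : ∀ v ∈ A, m v * aa val T w v ≤ rho val T v)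
    (hu : ∀ v ∈ A, (up val T c v : ℝ) ≤ t * up val T c w) : ∑ v ∈ A, m v ≤ t := by
  set f : ℕ → ℝ := fun p => if c p = 0 then 0 else 1 / (p : ℝ) with hf
  set g : ℕ → ℝ := fun p => if c p = 0 then 1 else 1 - 1 / (p : ℝ) with hg'
  set τ : Finset ℕ → ℝ := fun S => (∏ p ∈ S, f p) * ∏ p ∈ T \ S, g p with hτ
  have u0 : (0 : ℝ) < up val T c w := by exact_mod_cast up_pos hT w
  have p1 : ∀ p ∈ T, (1 : ℝ) ≤ p := fun p hp => by exact_mod_cast (hT p hp).one_le
  have p2 : ∀ p ∈ T, 0 ≤ 1 - 1 / (p : ℝ) := fun p hp => by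
    have := (div_le_one (by linarith [p1 p hp])).2 (p1 p hp); linarith
  have k1 : ∀ v ∈ A, m v * up val T c w ≤ τ (T.filter fun p => val p v + 1 = c p) := by
    intro v hv
    have a0 : 0 < aa val T w v := prod_pos fun p hp => by have := p1 p hp; positivity
    have : rho val T v * up val T c w ≤ aa val T w v * τ (T.filter fun p => val p v + 1 = c p) := by
      simp only [hτ]
      rw [← filter_not, ← prod_ite, up, Nat.cast_prod, prod_filter, rho, aa, ← prod_mul_distrib,
        ← prod_mul_distrib]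
      refine prod_le_prod (fun p hp => ?_) fun p hp => ?_
      · have := p1 p hp
        have := p2 p hp
        split_ifs <;> positivity
      · have q1 := p1 p hp
        have q2 := p2 p hp
        have q3 : 0 ≤ 1 / (p : ℝ) := by positivity
        obtain ⟨g1, g2⟩ := hg v hv p hp
        rw [Nat.dist] at g2
        by_cases e1 : val p w = c p + 1
        · have e2 : val p v = c p := by omega
          rw [if_pos e1, e1, e2, if_neg (show ¬ c p + 1 = c p by omega), Nat.add_sub_cancel_left,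
            pow_one, mul_comm]
        · rw [if_neg e1, mul_one]
          by_cases e2 : val p v + 1 = c p
          · rw [if_pos e2, show val p w - val p v = 1 by omega, pow_one]
            simp only [hf]
            rw [if_neg (show ¬ c p = 0 by omega), mul_one_div_cancel (by linarith)]
            split_ifs <;> linarith
          · rw [if_neg e2]
            refine le_trans ?_ (le_mul_of_one_le_left ?_ (one_le_pow₀ q1)) <;> simp only [hg']
            · split_ifs <;> first | linarith | omega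
            · split_ifs <;> linarith
    have h2 := mul_le_mul_of_nonneg_right (hm v hv) u0.le
    refine le_of_mul_le_mul_left ?_ a0
    linarith
  have τ0 : ∀ S ⊆ T, 0 ≤ τ S := fun S hS => mul_nonneg
    (prod_nonneg fun p _ => by simp only [hf]; split_ifs <;> positivity)
    (prod_nonneg fun p hp => by
      have := p2 p (mem_sdiff.1 hp).1
      simp only [hg']; split_ifs <;> linarith)
  have τ1 : ∑ S ∈ T.powerset, τ S = 1 := by
    simp only [hτ]
    rw [← prod_add]
    exact prod_eq_one fun p _ => by simp only [hf, hg']; split_ifs <;> ring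
  have inj : Set.InjOn (fun v => (up val T c v, T.filter fun p => val p v + 1 = c p)) A := by
    intro v hv v' hv' e
    rw [Prod.ext_iff] at e
    have e1 := congrArg Nat.primeFactors e.1
    simp only [up] at e1
    rw [Nat.primeFactors_prod fun p hp => hT p (mem_filter.1 hp).1,
      Nat.primeFactors_prod fun p hp => hT p (mem_filter.1 hp).1] at e1
    refine hA v hv v' hv' fun p hp => ?_
    have a1 := Finset.ext_iff.1 e1 p
    have a2 := Finset.ext_iff.1 e.2 p
    simp only [mem_filter, hp, true_and] at a1 a2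
    obtain ⟨g1, g2⟩ := hg v hv p hp
    obtain ⟨g3, g4⟩ := hg v' hv' p hp
    rw [Nat.dist] at g2 g4
    omega
  refine le_of_mul_le_mul_right ?_ u0
  rw [sum_mul]
  calc _ ≤ _ := sum_le_sum k1
    _ = ∑ x ∈ A.image fun v => (up val T c v, T.filter fun p => val p v + 1 = c p), τ x.2 :=
        (sum_image (f := fun x : ℕ × Finset ℕ => τ x.2) inj).symm
    _ ≤ ∑ x ∈ Icc 1 ⌊t * up val T c w⌋₊ ×ˢ T.powerset, τ x.2 := by
        refine sum_le_sum_of_subset_of_nonneg (fun x hx => ?_)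
          fun x hx _ => τ0 _ (mem_powerset.1 (mem_product.1 hx).2)
        obtain ⟨v, hv, rfl⟩ := mem_image.1 hx
        exact mem_product.2 ⟨mem_Icc.2 ⟨up_pos hT v, Nat.le_floor (hu v hv)⟩,
          mem_powerset.2 (filter_subset _ _)⟩
    _ ≤ _ := by
        rw [sum_product]
        simp only [τ1, sum_const, Nat.card_Icc, Nat.add_sub_cancel, nsmul_eq_mul, mul_one]
        exact Nat.floor_le (by positivity)

lemma struct (hT : ∀ p ∈ T, p.Prime) {V W : Finset ℕ} {E : Finset (ℕ × ℕ)} {m n : ℕ → ℝ}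
    (h : Gr V W E m n) (hV : Inj val T V) (hW : Inj val T W)
    (hg : ∀ e ∈ E, ∀ p ∈ T, good (c p) (val p e.1) (val p e.2))
    (hm : ∀ e ∈ E, m e.1 * aa val T e.2 e.1 ≤ rho val T e.1 ∧
      n e.2 * aa val T e.1 e.2 ≤ rho val T e.2) {t : ℝ} (ht : 0 < t) :
    mu E m n ≤ t * ∑ w ∈ W, n w + t⁻¹ * ∑ v ∈ V, m v := by
  have e : mu E m n = ∑ v ∈ V, ∑ w ∈ W, if (v, w) ∈ E then m v * n w else 0 := by
    rw [← sum_product', ← sum_filter, filter_mem_eq_inter, inter_eq_right.2 h.sub, mu]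
  have a1 : ∑ v ∈ V, ∑ w ∈ W, (if (v, w) ∈ E ∧ (up val T c v : ℝ) ≤ t * up val T c w
      then m v * n w else 0) ≤ t * ∑ w ∈ W, n w := by
    rw [sum_comm, mul_sum]
    refine sum_le_sum fun w _ => ?_
    rw [← sum_filter, ← sum_mul]
    refine mul_le_mul_of_nonneg_right (half (c := c) (w := w) hT
      (fun v hv v' hv' => hV v (mem_filter.1 hv).1 v' (mem_filter.1 hv').1) ht.le
      (fun v hv => hg _ (mem_filter.1 hv).2.1) (fun v hv => (hm _ (mem_filter.1 hv).2.1).1)
      fun v hv => (mem_filter.1 hv).2.2) (h.n0 w)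
  have a2 : ∑ v ∈ V, ∑ w ∈ W, (if (v, w) ∈ E ∧ (up val T c w : ℝ) ≤ t⁻¹ * up val T c v
      then m v * n w else 0) ≤ t⁻¹ * ∑ v ∈ V, m v := by
    rw [mul_sum]
    refine sum_le_sum fun v _ => ?_
    rw [← sum_filter, ← mul_sum, mul_comm]
    refine mul_le_mul_of_nonneg_right (half (c := c) (w := v) hT
      (fun w hw w' hw' => hW w (mem_filter.1 hw).1 w' (mem_filter.1 hw').1) (by positivity)
      (fun w hw p hp => (hg _ (mem_filter.1 hw).2.1 p hp).symm)
      (fun w hw => (hm _ (mem_filter.1 hw).2.1).2) fun w hw => (mem_filter.1 hw).2.2) (h.m0 v)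
  refine le_trans ?_ (add_le_add a1 a2)
  rw [e, ← sum_add_distrib]
  refine sum_le_sum fun v _ => ?_
  rw [← sum_add_distrib]
  refine sum_le_sum fun w _ => ?_
  have := mul_nonneg (h.m0 v) (h.n0 w)
  by_cases d : (v, w) ∈ E
  · simp only [d, true_and, if_true]
    split_ifs with d1 d2 d2
    · linarith
    · linarith
    · linarith
    · exact absurd ((le_inv_mul_iff₀ ht).2 (not_le.1 d1).le) d2
  · simp [d]

lemma er (I : Finset ℕ) (c : ℕ) (f : ℕ → ℕ → ℝ) : ∑ i ∈ I.erase c, ∑ j ∈ I.erase c, f i j =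
    ∑ i ∈ I, ∑ j ∈ I, if i ≠ c ∧ j ≠ c then f i j else 0 := by
  rw [← filter_ne', sum_filter]
  refine sum_congr rfl fun i _ => ?_
  by_cases d : i ≠ c
  · simp [d, sum_filter]
  · simp [d]

lemma conc {s : ℝ} (hs : 1 / 2 < s) (hs' : s ≤ 2 / 3) : ∃ C l : ℝ, 0 < l ∧
    ∀ (u : ℝ) (I : Finset ℕ) (α β : ℕ → ℝ), 0 < u → u ≤ 1 → u ^ (1 - s) ≤ l → PV I α β →
    1 ≤ ∑ i ∈ I, ∑ j ∈ I, (u ^ (1 - s)) ^ Nat.dist i j * (α i * β j) ^ s → ∃ c,
    ∑ i ∈ I, ∑ j ∈ I, (if ¬ good c i j then (u ^ (1 - s)) ^ Nat.dist i j * (α i * β j) ^ s else 0) ≤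
      C * u ^ (2 * s) := by
  obtain ⟨η, e0, e1, H⟩ := core hs
  set C1 : ℝ := (48 : ℝ) ^ (1 / (1 - s))
  refine ⟨C1 ^ (2 * s) + 24 * C1 ^ s + 8 * C1 ^ (2 * s), η / 4, by positivity,
    fun u I α β u0 u1 hl h h1 => ?_⟩
  have r0 : 0 < u ^ (1 - s) := by positivity
  have r2 : (u ^ (1 - s)) ^ 2 * u ^ s ≤ u ^ (2 * s) := by
    rw [← rpow_natCast, ← rpow_mul u0.le, ← rpow_add u0]
    exact rpow_le_rpow_of_exponent_ge u0 u1 (by push_cast; linarith)
  have hz : ∀ z : ℝ, 0 ≤ z → z ≤ 48 * u ^ (1 - s) * z ^ s → z ≤ C1 * u := by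
    intro z z0 hz
    rcases z0.eq_or_lt with d | d
    · rw [← d]; positivity
    have a : z ^ (1 - s) ≤ 48 * u ^ (1 - s) := by
      rw [rpow_sub d, rpow_one, div_le_iff₀ (by positivity)]; exact hz
    have b := rpow_le_rpow (by positivity) a (z := 1 / (1 - s)) (by apply div_nonneg <;> linarith)
    rwa [mul_rpow (by norm_num) r0.le, ← rpow_mul z0, ← rpow_mul u0.le,
      mul_one_div_cancel (by linarith), rpow_one, rpow_one] at b
  generalize u ^ (1 - s) = r at *
  have k1 := kerD r0.le (by linarith) zero_le_one I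
  have k2 : 1 * (2 * r / (1 - r)) ≤ 4 * r := by
    rw [one_mul, div_le_iff₀ (by linarith)]; nlinarith
  rw [diag] at h1
  obtain ⟨c, hc, t⟩ := H I α β h (by linarith [k1.all h hs.le])
  have o := k1.off h hs.le hc (by simp)
  have la := h.la hc
  have lb := h.lb hc
  have z0 : 0 ≤ 2 - α c - β c := by linarith
  have zs : 0 ≤ (2 - α c - β c) ^ s := rpow_nonneg z0 _
  have z1 := hz _ z0 (by nlinarith)
  have k3 := kerD (r := 1 / 2) (by norm_num) (by norm_num) (a := 4 * r ^ 2) (by positivity) I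
  have o3 := k3.off h hs.le hc (by simp)
  have o4 := k1.away h hs.le hc
  have k4 : Ker I (fun i j => if i = j then 1 else 0) 1 :=
    ⟨fun i j => by split_ifs <;> norm_num, fun i => by rw [sum_ite_eq]; split_ifs <;> norm_num,
      fun j => by rw [sum_ite_eq']; split_ifs <;> norm_num⟩
  have o5 := k4.away h hs.le hc
  have w1 : (2 - α c - β c) ^ s ≤ C1 ^ s * u ^ s := by
    rw [← mul_rpow (by positivity) u0.le]; exact rpow_le_rpow z0 z1 (by linarith)
  have w2 : (2 - α c - β c) ^ (2 * s) ≤ C1 ^ (2 * s) * u ^ (2 * s) := by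
    rw [← mul_rpow (by positivity) u0.le]; exact rpow_le_rpow z0 z1 (by linarith)
  refine ⟨c, le_trans (b := _ + (_ + _)) ?_ ((add_le_add o3 (add_le_add o4 o5)).trans ?_)⟩
  · rw [er, er]
    simp only [← sum_add_distrib]
    refine sum_le_sum fun i _ => sum_le_sum fun j _ => ?_
    have x0 : 0 ≤ (α i * β j) ^ s := rpow_nonneg (mul_nonneg (h.a0 i) (h.b0 j)) _
    have n3 := mul_nonneg (k3.nn i j) x0
    have n1 := mul_nonneg (k1.nn i j) x0
    have n4 := mul_nonneg (k4.nn i j) x0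
    by_cases d : i ≠ c ∧ j ≠ c
    · rw [if_pos d, if_pos d, if_pos fun g : good c i j => g.1.elim d.1 d.2]
      by_cases e : i = j
      · simp [e]
      · simp only [if_neg e] at n3 ⊢
        linarith
    · rw [if_neg d, if_neg d, add_zero, add_zero]
      by_cases g : good c i j
      · rw [if_neg (not_not.2 g)]; exact n3
      · have g2 : 2 ≤ Nat.dist i j := by
          by_contra g2
          exact g ⟨by tauto, by omega⟩
        rw [if_pos g, if_neg (by rintro rfl; simp at g2)]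
        refine mul_le_mul_of_nonneg_right ?_ x0
        obtain ⟨k, hk⟩ := Nat.exists_eq_add_of_le g2
        rw [hk, pow_add, pow_add]
        have := pow_le_pow_left₀ r0.le (show r ≤ 1 / 2 by linarith) k
        nlinarith [sq_nonneg r]
  · have c0 : 0 ≤ C1 ^ s := by positivity
    have c1 : 0 ≤ C1 ^ (2 * s) * u ^ (2 * s) := by positivity
    have f1 := mul_le_mul_of_nonneg_left w1 (sq_nonneg r)
    have f2 := mul_le_mul_of_nonneg_left r2 c0
    have f3 : 1 * (2 * r / (1 - r)) * (2 - α c - β c) ^ (2 * s) ≤ 1 * (C1 ^ (2 * s) * u ^ (2 * s)) :=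
      mul_le_mul (by linarith) w2 (rpow_nonneg z0 _) zero_le_one
    norm_num at f3 ⊢
    nlinarith

end Vale.Agent.P028
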