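import Vale.Agent.P028.H1

/-! The weighted gcd inequality. -/

namespace Vale.Agent.P028

open Finset Real

def HypH (val : ℕ → ℕ → ℕ) (T : Finset ℕ) (E : Finset (ℕ × ℕ)) (m n : ℕ → ℝ) : Prop :=
  ∀ e ∈ E, m e.1 * aa val T e.2 e.1 ≤ rho val T e.1 ∧ n e.2 * aa val T e.1 e.2 ≤ rho val T e.2

lemma rho_erase (val : ℕ → ℕ → ℕ) {T : Finset ℕ} (hT : ∀ p ∈ T, p.Prime) {p : ℕ} (hp : p ∈ T)
    (v : ℕ) : rho val T v ≤ rho val (T.erase p) v := by
  rw [rho, ← mul_prod_erase T _ hp]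
  refine mul_le_of_le_one_left (prod_nonneg fun q hq => ?_) ?_
  · have : (1 : ℝ) ≤ q := by exact_mod_cast (hT q (mem_of_mem_erase hq)).one_le
    have := (div_le_one (by linarith)).2 this
    split_ifs <;> linarith
  · have : 0 ≤ 1 / (p : ℝ) := by positivity
    split_ifs <;> linarith

lemma HypH.fib {val : ℕ → ℕ → ℕ} {T : Finset ℕ} {E : Finset (ℕ × ℕ)} {m n : ℕ → ℝ}
    (h : HypH val T E m n) (hT : ∀ p ∈ T, p.Prime) {p : ℕ} (hp : p ∈ T) (i j : ℕ) :
    HypH val (T.erase p) (fE (val p) E i j) (fun v => (p : ℝ) ^ (j - i) * m v)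
      (fun v => (p : ℝ) ^ (i - j) * n v) := by
  intro e he
  obtain ⟨h1, h2, h3⟩ := mem_filter.1 he
  obtain ⟨a, b⟩ := h e h1
  rw [aa_erase val hp, h2, h3] at a b
  exact ⟨by linarith [rho_erase val hT hp e.1], by linarith [rho_erase val hT hp e.2]⟩

lemma tail {s : ℝ} (hs : 1 / 2 < s) (hs' : s < 1) (C : ℝ) {l : ℝ} (hl : 0 < l) : ∃ p0 : ℕ,
    (∀ p : ℕ, p0 < p → ((p : ℝ)⁻¹) ^ (1 - s) ≤ l) ∧
    ∀ T : Finset ℕ, (∀ p ∈ T, p0 < p) → ∑ p ∈ T, C * ((p : ℝ)⁻¹) ^ (2 * s) ≤ 1 / 2 := by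
  have h1 : Summable fun p : ℕ => C * ((p : ℝ)⁻¹) ^ (2 * s) := by
    refine Summable.mul_left _ ?_
    simpa only [inv_rpow (Nat.cast_nonneg _)] using summable_nat_rpow_inv.2 (by linarith)
  obtain ⟨S, hS⟩ := h1.vanishing (Iic_mem_nhds (show (0 : ℝ) < 1 / 2 by norm_num))
  have h2 : Filter.Tendsto (fun p : ℕ => ((p : ℝ)⁻¹) ^ (1 - s)) Filter.atTop (nhds 0) := by
    have := (tendsto_inv_atTop_nhds_zero_nat (𝕜 := ℝ)).rpow_const (p := 1 - s)
      (Or.inr (by linarith))
    rwa [zero_rpow (by linarith)] at this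
  obtain ⟨a, ha⟩ := Filter.eventually_atTop.1 (h2.eventually (ge_mem_nhds hl))
  refine ⟨max a (S.sup id), fun p hp => ha p (by omega), fun T hT => hS T ?_⟩
  refine disjoint_left.2 fun p h h' => ?_
  have := hT p h
  have := le_sup (f := id) h'
  simp only [id] at this
  omega

theorem HH {s : ℝ} (hs : 1 / 2 < s) (hs' : s ≤ 2 / 3) : ∃ C : ℝ, 0 < C ∧
    ∀ (val : ℕ → ℕ → ℕ) (T V W : Finset ℕ) (E : Finset (ℕ × ℕ)) (m n : ℕ → ℝ),
    (∀ p ∈ T, p.Prime) → Gr V W E m n → Inj val T V → Inj val T W → HypH val T E m n →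
    mu E m n ≤ C * ((∑ v ∈ V, m v) * ∑ w ∈ W, n w) ^ s := by
  obtain ⟨C, l, l0, hc⟩ := conc hs hs'
  obtain ⟨p0, t1, t2⟩ := tail hs (by linarith) C l0
  set r0 : ℝ := (2 : ℝ) ^ (s - 1)
  have r1 : r0 < 1 := rpow_lt_one_of_one_lt_of_neg (by norm_num) (by linarith)
  have r2 : 0 < r0 := by positivity
  set K : ℝ := 1 + 2 * r0 / (1 - r0)
  have K1 : 1 ≤ K := le_add_of_nonneg_right (div_nonneg (by linarith) (by linarith))
  suffices H : ∀ (val : ℕ → ℕ → ℕ) (T V W : Finset ℕ) (E : Finset (ℕ × ℕ)) (m n : ℕ → ℝ),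
      (∀ p ∈ T, p.Prime) → Gr V W E m n → Inj val T V → Inj val T W → HypH val T E m n →
      mu E m n ≤ 4 * K ^ (T.filter (· ≤ p0)).card * ((∑ v ∈ V, m v) * ∑ w ∈ W, n w) ^ s by
    refine ⟨4 * K ^ (p0 + 1), by positivity, fun val T V W E m n a b c d e =>
      (H val T V W E m n a b c d e).trans (mul_le_mul_of_nonneg_right ?_
        (rpow_nonneg (mul_nonneg b.M0 b.N0) _))⟩
    refine mul_le_mul_of_nonneg_left (pow_le_pow_right₀ K1 ?_) (by norm_num)
    rw [← card_range (p0 + 1)]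
    exact card_le_card fun p hp => mem_range.2 (Nat.lt_succ_of_le (mem_filter.1 hp).2)
  intro val T
  induction T using Finset.strongInduction with
  | H T ih =>
  intro V W E m n hT h hV hW hH
  have X0 := rpow_nonneg (mul_nonneg h.M0 h.N0) s
  refine h.deg (by positivity) fun hM hN => ?_
  have fb : ∀ p ∈ T, ∀ i j, mu (fE (val p) E i j) m n ≤ _ := fun p hp i j =>
    h.scale (val p) hM hN (p := p) (by exact_mod_cast (hT p hp).pos) i j
      (ih _ (erase_ssubset hp) _ _ _ _ _ (fun q hq => hT q (mem_of_mem_erase hq))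
        (h.fib (val p) i j (by positivity) (by positivity)) (hV.fib p i) (hW.fib p j)
        (hH.fib hT hp i j))
  have sp : ∀ p, mu E m n = _ := fun p => by
    simpa only [filter_true, if_true] using h.split (val p) fun _ _ => True
  by_cases sm : ∃ p ∈ T, p ≤ p0
  · obtain ⟨p, hp, hp0⟩ := sm
    have pv := h.pv (val p) hM hN
    have q2 : (p : ℝ) ^ (s - 1) ≤ r0 := rpow_le_rpow_of_nonpos (by norm_num)
      (by exact_mod_cast (hT p hp).two_le) (by linarith)
    have e : (T.filter (· ≤ p0)).card = ((T.erase p).filter (· ≤ p0)).card + 1 := by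
      rw [filter_erase, card_erase_add_one (mem_filter.2 ⟨hp, hp0⟩)]
    rw [sp p, e, pow_succ, ← mul_assoc, mul_right_comm]
    refine (sum_le_sum fun i _ => sum_le_sum fun j _ => fb p hp i j).trans ?_
    simp only [← mul_sum]
    refine mul_le_mul_of_nonneg_left ?_ (by positivity)
    refine le_trans (sum_le_sum fun i _ => sum_le_sum fun j _ => mul_le_mul_of_nonneg_right
      (pow_le_pow_left₀ (by positivity) q2 _) (rpow_nonneg (mul_nonneg (pv.a0 i) (pv.b0 j)) _)) ?_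
    rw [diag]
    have a1 := pv.dg hs.le
    have a2 := (kerD r2.le r1 zero_le_one _).all pv hs.le
    simp only [K]
    linarith
  push Not at sm
  have e0 : ∀ S ⊆ T, (S.filter (· ≤ p0)).card = 0 := fun S hS => by
    rw [card_eq_zero, filter_eq_empty_iff]
    exact fun p hp => not_le.2 (sm p (hS hp))
  simp only [e0 _ (erase_subset _ _), pow_zero, mul_one] at fb
  rw [e0 T subset_rfl, pow_zero, mul_one]
  by_contra hb
  push Not at hb
  have X1 : 0 < ((∑ v ∈ V, m v) * ∑ w ∈ W, n w) ^ s := by positivity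
  have ex : ∀ p ∈ T, ∃ c, mu (E.filter fun e => ¬ good c (val p e.1) (val p e.2)) m n ≤
      mu E m n * (C * ((p : ℝ)⁻¹) ^ (2 * s)) := by
    intro p hp
    have p1 : (1 : ℝ) ≤ p := by exact_mod_cast (hT p hp).one_le
    have e : (p : ℝ) ^ (s - 1) = ((p : ℝ)⁻¹) ^ (1 - s) := by
      rw [inv_rpow (by linarith), ← rpow_neg (by linarith), neg_sub]
    have pv := h.pv (val p) hM hN
    have f1 := fb p hp
    rw [e] at f1
    obtain ⟨c, k⟩ := hc _ _ _ _ (by positivity) (inv_le_one_of_one_le₀ p1) (t1 p (sm p hp)) pv (by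
      have := (sp p).le.trans (sum_le_sum fun i _ => sum_le_sum fun j _ => f1 i j)
      simp only [← mul_sum] at this
      exact le_of_mul_le_mul_left (by linarith) (mul_pos four_pos X1))
    refine ⟨c, le_trans ?_ (mul_le_mul_of_nonneg_left k h.mu0)⟩
    rw [h.split (val p) fun i j => ¬ good c i j, mul_sum]
    refine sum_le_sum fun i _ => ?_
    rw [mul_sum]
    refine sum_le_sum fun j _ => ?_
    split_ifs
    · simp
    · refine (f1 i j).trans (mul_le_mul_of_nonneg_right hb.le ?_)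
      exact mul_nonneg (by positivity) (rpow_nonneg (mul_nonneg (pv.a0 i) (pv.b0 j)) _)
  choose! c hc' using ex
  set E' := E.filter fun e => ∀ p ∈ T, good (c p) (val p e.1) (val p e.2)
  have u1 : mu E m n ≤ mu E' m n + ∑ p ∈ T,
      mu (E.filter fun e => ¬ good (c p) (val p e.1) (val p e.2)) m n := by
    simp only [mu, E', sum_filter]
    rw [sum_comm, ← sum_add_distrib]
    refine sum_le_sum fun e _ => ?_
    have x0 := mul_nonneg (h.m0 e.1) (h.n0 e.2)
    have x1 : ∀ p ∈ T, 0 ≤ if ¬ good (c p) (val p e.1) (val p e.2) then m e.1 * n e.2 else 0 :=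
      fun p _ => by split_ifs <;> linarith
    split_ifs with d
    · linarith [sum_nonneg x1]
    · push Not at d
      obtain ⟨p, hp, d⟩ := d
      have := single_le_sum x1 hp
      simp only [if_pos d] at this
      linarith
  have u2 := (sum_le_sum hc').trans_eq (mul_sum _ _ _).symm
  have u3 := mul_le_mul_of_nonneg_left (t2 T sm) h.mu0
  have hE' : Gr V W E' m n := ⟨(filter_subset _ _).trans h.sub, h.m0, h.n0⟩
  have u4 := struct (c := c) hT hE' hV hW (fun e he => (mem_filter.1 he).2)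
    (fun e he => hH e (mem_filter.1 he).1)
    (t := √(∑ v ∈ V, m v) / √(∑ w ∈ W, n w)) (by positivity)
  have u5 := h.triv
  generalize ∑ v ∈ V, m v = M at *
  generalize ∑ w ∈ W, n w = N at *
  have a1 : √M / √N * N + (√M / √N)⁻¹ * M = 2 * (M * N) ^ (1 / 2 : ℝ) := by
    rw [← sqrt_eq_rpow, sqrt_mul hM.le, inv_div, div_mul_eq_mul_div, div_mul_eq_mul_div,
      mul_div_assoc, mul_div_assoc, div_sqrt, div_sqrt]
    ring
  rcases le_total 1 (M * N) with d | d
  · have := rpow_le_rpow_of_exponent_le d hs.le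
    linarith
  · have := rpow_le_rpow_of_exponent_ge (mul_pos hM hN) d (show s ≤ 1 by linarith)
    rw [rpow_one] at this
    linarith

end Vale.Agent.P028
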